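import Vale.Agent.P220.H592.Transfer

/-!
# P220: closed exact Lagrangians with topologically transitive symmetry

Let `L` be a closed exact Lagrangian in `T*Q` which is preserved by the cotangent lifts of a family
`Γ` of diffeomorphisms of `Q`. If `Γ` is topologically transitive on `Q` (every nonempty open
`Γ`-invariant subset is dense), then `L` is the zero section.
-/

open scoped Manifold ContDiff
open Vale.Agent.P220

namespace Vale.Agent.Results.P220.TransitiveSymmetry

/-- **Nearby Lagrangians with topologically transitive symmetry.** `Q` is a Hausdorff smooth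
manifold modelled on the finite-dimensional space `V`, `i : L → T*Q` a nonempty closed exact
embedded Lagrangian and `Γ` a set of diffeomorphisms of `Q` whose cotangent lifts map `i(L)` onto
itself. If every nonempty open subset `U` of `Q` with `ψ(U) = U` for all `ψ ∈ Γ` is dense, then
`i(L)` is the zero section. -/
theorem result {V : Type*} [NormedAddCommGroup V] [NormedSpace ℝ V] [FiniteDimensional ℝ V]
    {Q : Type*} [TopologicalSpace Q] [T2Space Q] [ChartedSpace V Q] [IsManifold 𝓘(ℝ, V) ∞ Q]
    {L : Type*} [TopologicalSpace L] [Nonempty L] [ChartedSpace V L] [IsManifold 𝓘(ℝ, V) ∞ L]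
    {i : L → CotangentBundle V Q} (hi : IsClosedExactLagrangian i)
    {Γ : Set (Diffeomorph 𝓘(ℝ, V) 𝓘(ℝ, V) Q Q ∞)}
    (hΓ : ∀ ψ ∈ Γ, cotangentLift ψ '' Set.range i = Set.range i)
    (htr : ∀ U : Set Q, IsOpen U → U.Nonempty → (∀ ψ ∈ Γ, ψ '' U = U) → Dense U) :
    Set.range i = zeroSection V Q :=
  H592.range_eq_zeroSection (H592.IsClosedExactLagrangian.of_public hi) hΓ htr

end Vale.Agent.Results.P220.TransitiveSymmetry
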